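import Vale.Agent.P181.R2.H959.FDefs

set_option autoImplicit false

open scoped TensorProduct

namespace Vale.Agent.P181.FR

open Vale.Agent.P181 Vale.Agent.P181.H280 Vale.Agent.P181.H54 MvPolynomial

/-! Row R2: symmetric functions of `B` points are highest weight vectors of `Sym^B(Sym^a)`. -/

section Sep

variable {V : Type} [AddCommGroup V] [Module ℂ V] [FiniteDimensional ℂ V]

lemma symEval_perm {ι : Type} [Fintype ι] {M : Type} [AddCommGroup M] [Module ℂ M]
    (lam : ι → Module.Dual ℂ M) (π : Equiv.Perm ι) (x : SymmetricPower ℂ ι M) :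
    symEval (fun i => lam (π i)) x = symEval lam x := by
  classical
  have h : (symEval (fun i => lam (π i)) : SymmetricPower ℂ ι M →ₗ[ℂ] ℂ) = symEval lam := by
    apply sym_hom_ext
    intro v
    rw [symEval_tprod, symEval_tprod, ← Equiv.sum_comp (Equiv.mulRight π)]
    apply Finset.sum_congr rfl
    intro e _
    exact Equiv.prod_comp π (fun i => lam i (v (e i)))
  rw [h]

omit [FiniteDimensional ℂ V] in
lemma symEval_diag (a : ℕ) (ξ : Module.Dual ℂ V) (y : Sym[ℂ]^a V) :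
    symEval (fun _ : Fin a => ξ) y = (Fintype.card (Equiv.Perm (Fin a)) : ℂ) * evalPow a ξ y := by
  have h : (symEval (fun _ : Fin a => ξ) : (Sym[ℂ]^a V) →ₗ[ℂ] ℂ) =
      (Fintype.card (Equiv.Perm (Fin a)) : ℂ) • evalPow a ξ := by
    apply sym_hom_ext
    intro v
    rw [symEval_tprod, LinearMap.smul_apply, evalPow_tprod, smul_eq_mul]
    have h1 : ∀ e : Equiv.Perm (Fin a), ∏ i, ξ (v (e i)) = ∏ i, ξ (v i) := fun e =>
      Equiv.prod_comp e (fun i => ξ (v i))
    rw [Finset.sum_congr rfl (fun e _ => h1 e), Finset.sum_const, nsmul_eq_mul, Finset.card_univ]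
  rw [h, LinearMap.smul_apply, smul_eq_mul]

lemma evalPow_sep (a : ℕ) (y : Sym[ℂ]^a V) (h : ∀ ξ : Module.Dual ℂ V, evalPow a ξ y = 0) :
    y = 0 := by
  classical
  apply symEval_separates Set.univ Submodule.span_univ
  intro lam _
  let Φ : MultilinearMap ℂ (fun _ : Fin a => Module.Dual ℂ V) ℂ :=
    ((Module.Dual.eval ℂ (⨂[ℂ] _ : Fin a, V) (symSum (Fin a) V y)) ∘ₗ
      (PiTensorProduct.dualDistrib (R := ℂ) (M := fun _ : Fin a => V))).compMultilinearMap
        (PiTensorProduct.tprod ℂ)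
  have hΦ : ∀ mu : Fin a → Module.Dual ℂ V, Φ mu = symEval mu y := fun _ => rfl
  have h1 := polar Φ ⊤ (fun ξ _ => by rw [hΦ, symEval_diag, h ξ, mul_zero]) lam
    (fun _ => Submodule.mem_top)
  have h2 : ∀ π : Equiv.Perm (Fin a), Φ (fun p => lam (π p)) = symEval lam y := by
    intro π
    rw [hΦ]
    exact symEval_perm lam π y
  rw [Finset.sum_congr rfl (fun e _ => h2 e), Finset.sum_const, nsmul_eq_mul,
    Finset.card_univ] at h1
  have h3 : (Fintype.card (Equiv.Perm (Fin a)) : ℂ) ≠ 0 := by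
    exact_mod_cast Fintype.card_ne_zero
  exact (mul_eq_zero.1 h1).resolve_left h3

lemma span_evalPow (a : ℕ) : Submodule.span ℂ (Set.range (fun ξ : Module.Dual ℂ V =>
    (evalPow a ξ : (Sym[ℂ]^a V) →ₗ[ℂ] ℂ))) = (⊤ : Submodule ℂ (Module.Dual ℂ (Sym[ℂ]^a V))) := by
  set W := Submodule.span ℂ (Set.range (fun ξ : Module.Dual ℂ V =>
    (evalPow a ξ : (Sym[ℂ]^a V) →ₗ[ℂ] ℂ))) with hW
  have h1 : W.dualCoannihilator = ⊥ := by
    rw [eq_bot_iff]
    intro y hy
    rw [Submodule.mem_dualCoannihilator] at hy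
    rw [Submodule.mem_bot]
    apply evalPow_sep
    intro ξ
    exact hy _ (Submodule.subset_span ⟨ξ, rfl⟩)
  have h2 := Subspace.dualCoannihilator_dualAnnihilator_eq (W := W)
  rw [h1] at h2
  rw [← h2]
  exact Submodule.dualAnnihilator_bot

/-- The values of a plethysm vector at `B` points separate. -/
lemma pt_sep {B a : ℕ} (x : Sym[ℂ]^B (Sym[ℂ]^a V))
    (h : ∀ ξ : Fin B → Module.Dual ℂ V, symEval (fun j => evalPow a (ξ j)) x = 0) : x = 0 := by
  apply symEval_separates _ (span_evalPow (V := V) a)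
  intro lam hlam
  choose ξ hξ using hlam
  have hlam' : lam = fun i => evalPow a (ξ i) := by
    funext i; exact (hξ i).symm
  rw [hlam']
  exact h ξ

omit [FiniteDimensional ℂ V] in
lemma symEval_symMap {B a : ℕ} (g : V →ₗ[ℂ] V) (ξ : Fin B → Module.Dual ℂ V)
    (x : Sym[ℂ]^B (Sym[ℂ]^a V)) :
    symEval (fun j => evalPow a (ξ j)) (symMap B (symMap a g) x) =
      symEval (fun j => evalPow a ((ξ j) ∘ₗ g)) x := by
  have h : (symEval (fun j => evalPow a (ξ j))) ∘ₗ (symMap B (symMap a g)) =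
      (symEval (fun j => evalPow a ((ξ j) ∘ₗ g)) : (Sym[ℂ]^B (Sym[ℂ]^a V)) →ₗ[ℂ] ℂ) := by
    apply pure_hom_ext
    intro v
    rw [LinearMap.comp_apply, symMap_tprod]
    simp only [symMap_tprod, symEval_tprod, evalPow_tprod, LinearMap.comp_apply]
  exact LinearMap.congr_fun h x

end Sep

/-- The functional `v ↦ ∑ p_i v_i`. -/
noncomputable def dotF {m : ℕ} (p : Fin m → ℂ) : Module.Dual ℂ (Fin m → ℂ) where
  toFun v := p ⬝ᵥ v
  map_add' v w := dotProduct_add p v w
  map_smul' c v := by rw [dotProduct_smul, RingHom.id_apply]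

lemma dotF_apply {m : ℕ} (p v : Fin m → ℂ) : dotF p v = p ⬝ᵥ v := rfl

lemma dotF_single {m : ℕ} (p : Fin m → ℂ) (i : Fin m) : dotF p (Pi.single i 1) = p i := by
  rw [dotF_apply, dotProduct_single, mul_one]

lemma exists_dotF {m : ℕ} (ξ : Module.Dual ℂ (Fin m → ℂ)) : ∃ p, ξ = dotF p := by
  refine ⟨fun i => ξ (Pi.single i 1), ?_⟩
  apply LinearMap.pi_ext'
  intro i
  ext
  simp only [LinearMap.comp_apply, LinearMap.single_apply]
  rw [dotF_single]

lemma dotF_comp {m : ℕ} (p : Fin m → ℂ) (g : Matrix (Fin m) (Fin m) ℂ) :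
    dotF p ∘ₗ Matrix.toLin' g = dotF (Matrix.vecMul p g) := by
  apply LinearMap.ext
  intro v
  rw [LinearMap.comp_apply, dotF_apply, dotF_apply, Matrix.toLin'_apply, Matrix.dotProduct_mulVec]

/-- The value of a plethysm vector at `B` points. -/
noncomputable def ptv {B a m : ℕ} (x : Pleth B a m) (p : Fin B → Fin m → ℂ) : ℂ :=
  symEval (fun j => evalPow a (dotF (p j))) (x : Sym[ℂ]^B (Sym[ℂ]^a (Fin m → ℂ)))

lemma ptv_sep {B a m : ℕ} (x y : Pleth B a m) (h : ∀ p, ptv x p = ptv y p) : x = y := by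
  have key : ∀ x' y' : Sym[ℂ]^B (Sym[ℂ]^a (Fin m → ℂ)),
      (∀ p : Fin B → Fin m → ℂ, symEval (fun j => evalPow a (dotF (p j))) x' =
        symEval (fun j => evalPow a (dotF (p j))) y') → x' = y' := by
    intro x' y' h'
    rw [← sub_eq_zero]
    apply pt_sep
    intro ξ
    choose p hp using fun j => exists_dotF (ξ j)
    have h1 : ξ = fun j => dotF (p j) := funext hp
    rw [h1, map_sub, sub_eq_zero]
    exact h' p
  exact key x y h

lemma ptv_smul {B a m : ℕ} (c : ℂ) (x : Pleth B a m) (p : Fin B → Fin m → ℂ) :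
    ptv (c • x) p = c * ptv x p :=
  (map_smul (symEval (fun j => evalPow a (dotF (p j)))) c
    (x : Sym[ℂ]^B (Sym[ℂ]^a (Fin m → ℂ)))).trans (smul_eq_mul _ _)

lemma ptv_add {B a m : ℕ} (x y : Pleth B a m) (p : Fin B → Fin m → ℂ) :
    ptv (x + y) p = ptv x p + ptv y p :=
  map_add (symEval (fun j => evalPow a (dotF (p j))))
    (x : Sym[ℂ]^B (Sym[ℂ]^a (Fin m → ℂ))) (y : Sym[ℂ]^B (Sym[ℂ]^a (Fin m → ℂ)))

lemma ptv_zero {B a m : ℕ} (p : Fin B → Fin m → ℂ) : ptv (0 : Pleth B a m) p = 0 :=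
  map_zero (symEval (fun j => evalPow a (dotF (p j))))

lemma ptv_act {B a m : ℕ} (g : Matrix (Fin m) (Fin m) ℂ) (x : Pleth B a m)
    (p : Fin B → Fin m → ℂ) :
    ptv (plethAct B a m g x) p = ptv x (fun j => Matrix.vecMul (p j) g) := by
  have h := symEval_symMap (Matrix.toLin' g) (fun j => dotF (p j))
    (x : Sym[ℂ]^B (Sym[ℂ]^a (Fin m → ℂ)))
  simp only [dotF_comp] at h
  exact h

/-- Every form is the function of a vector of the symmetric power. -/
lemma exists_vec {a m : ℕ} (q : MvPolynomial (Fin m) ℂ) (hq : q.IsHomogeneous a) :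
    ∃ y : Sym[ℂ]^a (Fin m → ℂ), ∀ p : Fin m → ℂ, evalPow a (dotF p) y = eval p q := by
  have hmon : ∀ d : Fin m →₀ ℕ, d.degree = a →
      ∃ y : Sym[ℂ]^a (Fin m → ℂ), ∀ p : Fin m → ℂ, evalPow a (dotF p) y = d.prod fun i k => p i ^ k := by
    intro d hd
    have hcard : (Finsupp.toMultiset d).card = a := by
      rw [Finsupp.card_toMultiset, ← hd, Finsupp.degree]
      rfl
    obtain ⟨f, hf⟩ := exists_fin_map (Finsupp.toMultiset d) a hcard
    refine ⟨SymmetricPower.tprod ℂ (fun t => Pi.single (f t) 1), ?_⟩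
    intro p
    rw [evalPow_tprod]
    simp only [dotF_single]
    have h1 : ∏ t, p (f t) = (Multiset.map p (Finsupp.toMultiset d)).prod := by
      rw [hf, Multiset.map_map]
      rfl
    rw [h1, Finsupp.toMultiset_map, Finsupp.prod_toMultiset,
      Finsupp.prod_mapDomain_index (fun _ => pow_zero _) (fun _ _ _ => pow_add _ _ _)]
  classical
  choose! y hy using hmon
  refine ⟨∑ d ∈ q.support, coeff d q • y d, ?_⟩
  intro p
  rw [map_sum, eval_eq']
  apply Finset.sum_congr rfl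
  intro d hd
  have hd' : Finsupp.degree d = a := by
    rw [Finsupp.degree_eq_weight_one]
    exact hq (mem_support_iff.1 hd)
  rw [map_smul, smul_eq_mul, hy d hd']
  congr 1
  exact Finsupp.prod_fintype d _ (fun i => pow_zero _)

/-- The symmetrization of a function in `MP` is the function of a vector. -/
lemma exists_ptv {B a m : ℕ} (G : (Fin B → Fin m → ℂ) → ℂ) (hG : G ∈ MP B m a) :
    ∃ x : Pleth B a m, ∀ p, ptv x p = ∑ σ : Equiv.Perm (Fin B), G (fun j => p (σ j)) := by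
  classical
  induction hG using Submodule.span_induction with
  | mem G hG =>
    obtain ⟨q, hq, rfl⟩ := hG
    choose y hy using fun j => exists_vec (q j) (hq j)
    refine ⟨SymmetricPower.tprod ℂ y, ?_⟩
    intro p
    refine (symEval_tprod (fun j => evalPow a (dotF (p j))) y).trans ?_
    rw [← Equiv.sum_comp (Equiv.inv (Equiv.Perm (Fin B)))]
    apply Finset.sum_congr rfl
    intro σ _
    rw [← Equiv.prod_comp σ]
    apply Finset.prod_congr rfl
    intro j _
    rw [hy]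
    simp
  | zero =>
    refine ⟨0, fun p => ?_⟩
    rw [ptv_zero]
    simp
  | add G H _ _ h h' =>
    obtain ⟨x, hx⟩ := h
    obtain ⟨y, hy⟩ := h'
    refine ⟨x + y, fun p => ?_⟩
    rw [ptv_add, hx, hy, ← Finset.sum_add_distrib]
    rfl
  | smul c G _ h =>
    obtain ⟨x, hx⟩ := h
    refine ⟨c • x, fun p => ?_⟩
    rw [ptv_smul, hx, Finset.mul_sum]
    rfl

theorem realize {B a m : ℕ} {lam : Fin m → ℕ} (G : (Fin B → Fin m → ℂ) → ℂ) (hG : G ∈ MP B m a)
    (hsy : ∀ (σ : Equiv.Perm (Fin B)) p, G (fun j => p (σ j)) = G p)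
    (hw : ∀ g : Matrix (Fin m) (Fin m) ℂ, IsBorel g → ∀ p,
      G (fun j => Matrix.vecMul (p j) g) = (∏ i, g i i ^ lam i) * G p)
    (hne : G ≠ 0) : Pos B a m lam := by
  obtain ⟨x, hx⟩ := exists_ptv G hG
  have hx' : ∀ p, ptv x p = (Fintype.card (Equiv.Perm (Fin B)) : ℂ) * G p := by
    intro p
    rw [hx p, Finset.sum_congr rfl (fun σ _ => hsy σ p), Finset.sum_const, nsmul_eq_mul,
      Finset.card_univ]
  have hc : (Fintype.card (Equiv.Perm (Fin B)) : ℂ) ≠ 0 := by
    exact_mod_cast Fintype.card_ne_zero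
  refine ⟨x, ?_, ?_⟩
  · intro g hg
    apply ptv_sep
    intro p
    rw [ptv_act, ptv_smul, hx', hx', hw g hg]
    ring
  · intro h0
    apply hne
    funext p
    have h1 := hx' p
    rw [h0, ptv_zero] at h1
    exact (mul_eq_zero.1 h1.symm).resolve_left hc

end Vale.Agent.P181.FR
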