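import Vale.Agent.P181.R2.H959.WDefs
import Vale.Agent.P181.R2.H959.FMul
import Vale.Agent.P181.R2.H923.FR2

set_option autoImplicit false

open scoped TensorProduct

namespace Vale.Agent.P181.FR

open Vale.Agent.P181 Vale.Agent.P181.H280 Vale.Agent.P181.H54 MvPolynomial

namespace W6

section Gen

variable {M : Type} [AddCommGroup M] [Module ℂ M]

lemma multi_zero {κ : Type} [Fintype κ] {V N : Type*} [AddCommGroup V] [Module ℂ V]
    [AddCommGroup N] [Module ℂ N] (Φ : MultilinearMap ℂ (fun _ : κ => V) N) (S : κ → Set V)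
    (w : κ → V) (hw : ∀ l, w l ∈ Submodule.span ℂ (S l))
    (h : ∀ w' : κ → V, (∀ l, w' l ∈ S l) → Φ w' = 0) : Φ w = 0 := by
  classical
  have h1 : ∀ i, ∃ l : S i →₀ ℂ, Finsupp.linearCombination ℂ (Subtype.val : S i → V) l = w i := by
    intro i
    rw [← Finsupp.mem_span_iff_linearCombination]
    exact hw i
  choose l hl using h1
  have h2 : w = fun i => ∑ r ∈ (l i).support, (l i r) • (r : V) := by
    funext i
    rw [← hl i, Finsupp.linearCombination_apply, Finsupp.sum]
  rw [h2, MultilinearMap.map_sum_finset]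
  apply Finset.sum_eq_zero
  intro r _
  rw [MultilinearMap.map_smul_univ, h _ (fun i => (r i).2), smul_zero]

open scoped Classical in
/-- The diagonal values along a line through a sum of functionals whose coincidences are zero. -/
lemma line_poly {d : ℕ} (x : Sym[ℂ]^(d + 1) M) (E : Fin (d + 1) → Module.Dual ℂ M)
    (hco : ∀ (lam : Fin (d + 1) → Module.Dual ℂ M) (i j : Fin (d + 1)), i ≠ j → lam i = lam j →
      (∃ t : Fin d, lam i = E t.castSucc) → symEval lam x = 0) :
    ∃ q : Polynomial ℂ, (∀ τ : ℂ, q.eval τ =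
        symEval (fun _ : Fin (d + 1) => τ • (∑ t : Fin d, E t.castSucc) + E (Fin.last d)) x) ∧
      q.natDegree ≤ d ∧
      q.coeff d = (Fintype.card (Equiv.Perm (Fin (d + 1))) : ℂ) * symEval E x := by
  let ex : (Fin (d + 1) → Fin (d + 1)) → ℕ := fun f =>
    (Finset.univ.filter (fun l => f l ≠ Fin.last d)).card
  have hnot : ∀ f : Fin (d + 1) → Fin (d + 1), (∃ i j, i ≠ j ∧ f i = f j ∧ f i ≠ Fin.last d) →
      symEvalM x (fun l => E (f l)) = 0 := by
    rintro f ⟨i, j, hij, hf, hl⟩
    rw [symEvalM_apply]
    refine hco _ i j hij (by rw [hf]) ?_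
    obtain ⟨t, ht⟩ := Fin.exists_castSucc_eq.2 hl
    exact ⟨t, by rw [ht]⟩
  have hbig : ∀ f : Fin (d + 1) → Fin (d + 1), d < ex f → symEvalM x (fun l => E (f l)) = 0 := by
    intro f hf
    apply hnot
    have h1 : ∀ l, f l ≠ Fin.last d := by
      intro l hl
      have h2 : Finset.univ.filter (fun l => f l ≠ Fin.last d) ⊆ Finset.univ.erase l := by
        intro l' hl'
        rw [Finset.mem_filter] at hl'
        rw [Finset.mem_erase]
        refine ⟨?_, Finset.mem_univ _⟩
        rintro rfl
        exact hl'.2 hl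
      have h3 := Finset.card_le_card h2
      rw [Finset.card_erase_of_mem (Finset.mem_univ _), Finset.card_univ, Fintype.card_fin] at h3
      change ex f ≤ _ at h3
      omega
    choose g hg using fun l => Fin.exists_castSucc_eq.2 (h1 l)
    obtain ⟨i, j, hij, hgij⟩ := Fintype.exists_ne_map_eq_of_card_lt g (by simp)
    exact ⟨i, j, hij, by rw [← hg i, ← hg j, hgij], h1 i⟩
  refine ⟨∑ f : Fin (d + 1) → Fin (d + 1),
    Polynomial.C (symEvalM x (fun l => E (f l))) * Polynomial.X ^ (ex f), ?_, ?_, ?_⟩
  · intro τ
    rw [← symEvalM_apply]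
    have h1 : (fun _ : Fin (d + 1) => τ • (∑ t : Fin d, E t.castSucc) + E (Fin.last d)) =
        fun _ : Fin (d + 1) => ∑ j : Fin (d + 1), (if j = Fin.last d then (1 : ℂ) else τ) • E j := by
      funext _
      rw [Fin.sum_univ_castSucc]
      congr 1
      · rw [Finset.smul_sum]
        apply Finset.sum_congr rfl
        intro t _
        rw [if_neg (Fin.castSucc_lt_last t).ne]
      · rw [if_pos rfl, one_smul]
    rw [h1, MultilinearMap.map_sum, Polynomial.eval_finsetSum]
    apply Finset.sum_congr rfl
    intro f _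
    rw [Polynomial.eval_mul, Polynomial.eval_C, Polynomial.eval_pow, Polynomial.eval_X,
      MultilinearMap.map_smul_univ, smul_eq_mul, mul_comm]
    congr 1
    rw [Finset.prod_ite, Finset.prod_const_one, one_mul, Finset.prod_const]
  · apply Polynomial.natDegree_sum_le_of_forall_le
    intro f _
    by_cases h : d < ex f
    · rw [hbig f h]
      simp
    · exact (Polynomial.natDegree_C_mul_X_pow_le _ _).trans (not_lt.1 h)
  · rw [Polynomial.finsetSum_coeff]
    have h1 : ∀ f : Fin (d + 1) → Fin (d + 1),
        (Polynomial.C (symEvalM x (fun l => E (f l))) * Polynomial.X ^ (ex f)).coeff d =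
        if Function.Bijective f then symEvalM x (fun l => E (f l)) else 0 := by
      intro f
      rw [Polynomial.coeff_C_mul_X_pow]
      by_cases hb : Function.Bijective f
      · rw [if_pos hb, if_pos]
        obtain ⟨l0, hl0⟩ := hb.2 (Fin.last d)
        have h2 : Finset.univ.filter (fun l => f l ≠ Fin.last d) = Finset.univ.erase l0 := by
          ext l
          rw [Finset.mem_filter, Finset.mem_erase]
          constructor
          · rintro ⟨_, h⟩
            refine ⟨?_, Finset.mem_univ _⟩
            rintro rfl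
            exact h hl0
          · rintro ⟨h, _⟩
            refine ⟨Finset.mem_univ _, fun h' => h (hb.1 (by rw [h', hl0]))⟩
        change d = (Finset.univ.filter (fun l => f l ≠ Fin.last d)).card
        rw [h2, Finset.card_erase_of_mem (Finset.mem_univ _), Finset.card_univ, Fintype.card_fin]
        rfl
      · rw [if_neg hb]
        split_ifs with hd
        · apply hnot
          have h2 : ¬ Function.Injective f := fun h => hb (Finite.injective_iff_bijective.1 h)
          rw [Function.Injective] at h2
          push Not at h2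
          obtain ⟨i, j, hf, hij⟩ := h2
          refine ⟨i, j, hij, hf, ?_⟩
          intro hl
          have h3 : Finset.univ.filter (fun l => f l ≠ Fin.last d) ⊆
              (Finset.univ.erase i).erase j := by
            intro l hl'
            rw [Finset.mem_filter] at hl'
            rw [Finset.mem_erase, Finset.mem_erase]
            refine ⟨?_, ?_, Finset.mem_univ _⟩
            · rintro rfl
              exact hl'.2 (by rw [← hf, hl])
            · rintro rfl
              exact hl'.2 hl
          have h4 := Finset.card_le_card h3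
          rw [Finset.card_erase_of_mem (Finset.mem_erase.2 ⟨hij.symm, Finset.mem_univ _⟩),
            Finset.card_erase_of_mem (Finset.mem_univ _), Finset.card_univ,
            Fintype.card_fin] at h4
          change ex f ≤ _ at h4
          have h5 : 0 < d := by
            rcases Nat.eq_zero_or_pos d with h0 | h0
            · subst h0
              exact absurd (Fin.ext (by omega)) hij
            · exact h0
          omega
        · rfl
    rw [Finset.sum_congr rfl (fun f _ => h1 f), ← Finset.sum_filter]
    have h2 : ∑ f ∈ Finset.univ.filter (fun f : Fin (d + 1) → Fin (d + 1) => Function.Bijective f),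
        symEvalM x (fun l => E (f l)) = ∑ σ : Equiv.Perm (Fin (d + 1)),
          symEvalM x (fun l => E (σ l)) := by
      symm
      apply Finset.sum_bij (fun (e : Equiv.Perm (Fin (d + 1))) _ => (⇑e : Fin (d + 1) → Fin (d + 1)))
      · intro e _
        rw [Finset.mem_filter]
        exact ⟨Finset.mem_univ _, e.bijective⟩
      · intro e _ e' _ h
        exact Equiv.coe_fn_injective h
      · intro p hp
        rw [Finset.mem_filter] at hp
        exact ⟨Equiv.ofBijective p hp.2, Finset.mem_univ _, rfl⟩
      · intro e _; rfl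
    rw [h2]
    have h3 : ∀ σ : Equiv.Perm (Fin (d + 1)), symEvalM x (fun l => E (σ l)) = symEval E x := by
      intro σ
      rw [symEvalM_apply]
      exact symEval_perm E σ x
    rw [Finset.sum_congr rfl (fun σ _ => h3 σ), Finset.sum_const, nsmul_eq_mul, Finset.card_univ]

/-- Products of `R` elements. -/
lemma exists_prod (B : ℕ) : ∀ R : ℕ, ∃ κ : ℂ, κ ≠ 0 ∧ ∀ y : Fin R → Sym[ℂ]^B M,
    ∃ X : Sym[ℂ]^(B * R) M, ∀ φ : Module.Dual ℂ M,
      symEval (fun _ => φ) X = κ * ∏ r, symEval (fun _ => φ) (y r) := by
  intro R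
  induction R with
  | zero =>
    refine ⟨1, one_ne_zero, fun y => ?_⟩
    refine ⟨SymmetricPower.tprod ℂ (fun i : Fin (B * 0) => i.elim0), fun φ => ?_⟩
    classical
    rw [symEval_tprod]
    simp
  | succ R ih =>
    obtain ⟨κ, hκ, ih⟩ := ih
    have hc1 := fac_ne B
    have hc2 := fac_ne (B * R)
    have hc3 := fac_ne (B * R + B)
    refine ⟨(Fintype.card (Equiv.Perm (Fin (B * R + B))) : ℂ) /
      ((Fintype.card (Equiv.Perm (Fin (B * R))) : ℂ) * (Fintype.card (Equiv.Perm (Fin B)) : ℂ)) * κ,
      mul_ne_zero (div_ne_zero hc3 (mul_ne_zero hc2 hc1)) hκ, fun y => ?_⟩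
    obtain ⟨X, hX⟩ := ih (fun r => y r.castSucc)
    obtain ⟨L, hL⟩ := exists_mul (b := B * R) (y (Fin.last R))
    refine ⟨L X, fun φ => ?_⟩
    have h1 := hL φ X
    rw [hX φ] at h1
    rw [Fin.prod_univ_castSucc]
    have h2 : (Fintype.card (Equiv.Perm (Fin (B * R))) : ℂ) *
        (Fintype.card (Equiv.Perm (Fin B)) : ℂ) ≠ 0 := mul_ne_zero hc2 hc1
    apply mul_left_cancel₀ h2
    refine h1.trans ?_
    field_simp

end Gen

section Dual

variable {D : Type} [AddCommGroup D] [Module ℂ D]

/-- Linearly independent functionals take arbitrary values. -/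
lemma exists_value {ι : Type} [Fintype ι] [DecidableEq ι] (L : ι → Module.Dual ℂ D)
    (hL : ∀ a : ι → ℂ, ∑ i, a i • L i = 0 → a = 0) (t : ι → ℂ) : ∃ U : D, ∀ i, L i U = t i := by
  let T : D →ₗ[ℂ] (ι → ℂ) := LinearMap.pi L
  have hT : LinearMap.range T = ⊤ := by
    by_contra h
    obtain ⟨f, hf0, hf⟩ := Submodule.exists_le_ker_of_lt_top _ (lt_top_iff_ne_top.2 h)
    apply hf0
    have h1 : (fun i => f (Pi.single i 1)) = 0 := by
      apply hL
      apply LinearMap.ext
      intro U
      have h2 : f (T U) = 0 := by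
        have := hf (LinearMap.mem_range_self T U)
        exact this
      have h3 : T U = ∑ i, (L i U) • (Pi.single i (1 : ℂ) : ι → ℂ) := by
        funext j
        rw [Finset.sum_apply]
        simp only [Pi.smul_apply, smul_eq_mul, Pi.single_apply, mul_ite, mul_one, mul_zero]
        rw [Finset.sum_ite_eq]
        simp [T]
      rw [h3, map_sum] at h2
      simp only [map_smul, smul_eq_mul] at h2
      rw [LinearMap.sum_apply, LinearMap.zero_apply, ← h2]
      apply Finset.sum_congr rfl
      intro i _
      rw [LinearMap.smul_apply, smul_eq_mul, mul_comm]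
    apply LinearMap.pi_ext'
    intro i
    ext
    have := congrFun h1 i
    simpa using this
  have h2 : t ∈ LinearMap.range T := by rw [hT]; exact Submodule.mem_top
  obtain ⟨U, hU⟩ := h2
  exact ⟨U, fun i => congrFun hU i⟩

end Dual

end W6

open W6

open scoped Classical in
theorem rich_of_family {d c m s R : ℕ} {nu : Fin m → ℕ}
    (G : Fin R → Fin s → ((Fin (d + 1) → Fin m → ℂ) → ℂ)) (hG : ∀ r k, G r k ∈ MP (d + 1) m c)
    (hsy : ∀ r k (σ : Equiv.Perm (Fin (d + 1))) p, G r k (fun j => p (σ j)) = G r k p)
    (hw : ∀ r k, HWF (d + 1) m nu (G r k))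
    (hdiag : ∀ r k p (i j : Fin (d + 1)), i ≠ j → p i = p j → G r k p = 0)
    (P : Fin d → Fin m → ℂ)
    (hli : LinearIndependent ℂ (fun rk : Fin R × Fin s => fun q : Fin m → ℂ =>
      G rk.1 rk.2 (Fin.snoc (α := fun _ => Fin m → ℂ) P q))) :
    s ^ R ≤ plethMult ((d + 1) * R) c m (R • nu) := by
  -- the vectors
  choose x hx using fun r k => exists_ptv (G r k) (hG r k)
  have hfac : (Fintype.card (Equiv.Perm (Fin (d + 1))) : ℂ) ≠ 0 := fac_ne _
  have hx' : ∀ r k p, ptv (x r k) p = (Fintype.card (Equiv.Perm (Fin (d + 1))) : ℂ) * G r k p := by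
    intro r k p
    rw [hx r k p, Finset.sum_congr rfl (fun σ _ => hsy r k σ p), Finset.sum_const, nsmul_eq_mul,
      Finset.card_univ]
  let y : Fin R → Fin s → Sym[ℂ]^(d + 1) (Sym[ℂ]^c (Fin m → ℂ)) := fun r k => x r k
  have hy : ∀ r k (p : Fin (d + 1) → Fin m → ℂ), symEval (fun j => evalPow c (dotF (p j))) (y r k) =
      (Fintype.card (Equiv.Perm (Fin (d + 1))) : ℂ) * G r k p := hx'
  -- eigenvectors
  have hyw : ∀ r k (g : Matrix (Fin m) (Fin m) ℂ), IsBorel g →
      symMap (d + 1) (symMap c (Matrix.toLin' g)) (y r k) = (∏ i, g i i ^ nu i) • y r k := by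
    intro r k g hg
    have h1 : plethAct (d + 1) c m g (x r k) = (∏ i, g i i ^ nu i) • x r k := by
      apply ptv_sep
      intro p
      rw [ptv_act, ptv_smul, hx', hx', hw r k g hg]
      ring
    exact h1
  -- the evaluations span
  let V := Fin m → ℂ
  let D := Module.Dual ℂ (Sym[ℂ]^c V)
  let ev : (Fin m → ℂ) → D := fun p => evalPow c (dotF p)
  have hspan : ∀ φ : D, φ ∈ Submodule.span ℂ (Set.range ev) := by
    intro φ
    have h1 : φ ∈ Submodule.span ℂ (Set.range (fun ξ : Module.Dual ℂ V =>
        (evalPow c ξ : (Sym[ℂ]^c V) →ₗ[ℂ] ℂ))) := by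
      rw [span_evalPow]
      exact Submodule.mem_top
    refine Submodule.span_mono ?_ h1
    rintro _ ⟨ξ, rfl⟩
    obtain ⟨p, rfl⟩ := exists_dotF ξ
    exact ⟨p, rfl⟩
  -- coincidences
  have hco : ∀ r k (lam : Fin (d + 1) → D) (i j : Fin (d + 1)), i ≠ j → lam i = lam j →
      (∃ q, lam i = ev q) → symEval lam (y r k) = 0 := by
    intro r k lam i j hij hl ⟨q, hq⟩
    rw [← symEvalM_apply]
    refine multi_zero (symEvalM (y r k))
      (fun l => if l = i ∨ l = j then {ev q} else Set.range ev) lam ?_ ?_
    · intro l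
      by_cases h : l = i ∨ l = j
      · simp only [h, if_true]
        have : lam l = ev q := by
          rcases h with rfl | rfl
          · exact hq
          · rw [← hl, hq]
        rw [this]
        exact Submodule.subset_span rfl
      · simp only [h, if_false]
        exact hspan _
    · intro w' hw'
      have h1 : ∀ l, ∃ p, w' l = ev p ∧ ((l = i ∨ l = j) → p = q) := by
        intro l
        have h2 := hw' l
        by_cases h : l = i ∨ l = j
        · simp only [h, if_true] at h2
          exact ⟨q, h2, fun _ => rfl⟩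
        · simp only [h, if_false] at h2
          obtain ⟨p, hp⟩ := h2
          exact ⟨p, hp.symm, fun h' => absurd h' h⟩
      choose p hp1 hp2 using h1
      have h3 : w' = fun l => evalPow c (dotF (p l)) := funext hp1
      rw [symEvalM_apply, h3, hy, hdiag r k p i j hij
        (by rw [hp2 i (Or.inl rfl), hp2 j (Or.inr rfl)]), mul_zero]
  -- the linear forms
  let E0 : Fin (d + 1) → D := Fin.snoc (α := fun _ => D) (fun j => ev (P j)) 0
  let Lf : Fin R × Fin s → Module.Dual ℂ D := fun rk =>
    (symEvalM (y rk.1 rk.2)).toLinearMap E0 (Fin.last d)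
  have hLf : ∀ rk U, Lf rk U =
      symEval (Fin.snoc (α := fun _ => D) (fun j => ev (P j)) U) (y rk.1 rk.2) := by
    intro rk U
    change symEvalM (y rk.1 rk.2) (Function.update E0 (Fin.last d) U) = _
    rw [Fin.update_snoc_last]
    rfl
  have hLind : ∀ a : Fin R × Fin s → ℂ, ∑ i, a i • Lf i = 0 → a = 0 := by
    intro a ha
    rw [Fintype.linearIndependent_iff] at hli
    have h1 := hli a
    funext i
    refine h1 ?_ i
    funext q
    have h2 := LinearMap.congr_fun ha (ev q)
    rw [LinearMap.sum_apply, LinearMap.zero_apply] at h2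
    have h3 : ∀ i : Fin R × Fin s, (a i • Lf i) (ev q) =
        (Fintype.card (Equiv.Perm (Fin (d + 1))) : ℂ) *
          (a i * G i.1 i.2 (Fin.snoc (α := fun _ => Fin m → ℂ) P q)) := by
      intro i
      rw [LinearMap.smul_apply, smul_eq_mul, hLf]
      have h4 : (Fin.snoc (α := fun _ => D) (fun j => ev (P j)) (ev q)) =
          fun j => evalPow c (dotF ((Fin.snoc (α := fun _ => Fin m → ℂ) P q : _) j)) := by
        funext j
        refine Fin.lastCases ?_ (fun j => ?_) j
        · simp [ev]
        · simp [ev]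
      rw [h4, hy]
      ring
    rw [Finset.sum_congr rfl (fun i _ => h3 i), ← Finset.mul_sum] at h2
    have h5 := (mul_eq_zero.1 h2).resolve_left hfac
    simpa [Finset.sum_apply] using h5
  -- the products
  obtain ⟨κ, hκ, hprod⟩ := exists_prod (M := Sym[ℂ]^c V) (d + 1) R
  choose X hX using fun k : Fin R → Fin s => hprod (fun r => y r (k r))
  let X' : (Fin R → Fin s) → Pleth ((d + 1) * R) c m := X
  have hXw : ∀ k, X' k ∈ hwSpace (R • nu) (plethAct ((d + 1) * R) c m) := by
    intro k g hg
    have h1 : symMap ((d + 1) * R) (symMap c (Matrix.toLin' g)) (X k) -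
        (∏ i, g i i ^ (R • nu) i) • X k = 0 := by
      apply pv_inj
      intro φ
      rw [map_sub, map_smul, H54.symEval_symMap, sub_eq_zero, smul_eq_mul, hX, hX]
      have e1 : ∀ r, symEval (fun _ : Fin (d + 1) => φ ∘ₗ symMap c (Matrix.toLin' g))
          (y r (k r)) = (∏ i, g i i ^ nu i) * symEval (fun _ => φ) (y r (k r)) := by
        intro r
        exact pv_eigen _ _ _ (hyw r (k r) g hg) φ
      rw [Finset.prod_congr rfl (fun r _ => e1 r), Finset.prod_mul_distrib, Finset.prod_const,
        Finset.card_univ, Fintype.card_fin]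
      have e2 : ∏ i, g i i ^ (R • nu) i = (∏ i, g i i ^ nu i) ^ R := by
        rw [← Finset.prod_pow]
        apply Finset.prod_congr rfl
        intro i _
        rw [Pi.smul_apply, smul_eq_mul, mul_comm, pow_mul]
      rw [e2]
      ring
    exact eq_of_sub_zero' h1
  -- the linear map
  let f : ((Fin R → Fin s) → ℂ) →ₗ[ℂ] Pleth ((d + 1) * R) c m :=
    Fintype.linearCombination ℂ X'
  have hf : ∀ a, f a = ∑ k, a k • X' k := fun a => Fintype.linearCombination_apply ℂ X' a
  have hinj : ∀ a : (Fin R → Fin s) → ℂ, f a = 0 → a = 0 := by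
    intro a ha
    funext k0
    obtain ⟨U, hU⟩ := exists_value Lf hLind (fun rk => if rk.2 = k0 rk.1 then 1 else 0)
    let E : Fin (d + 1) → D := Fin.snoc (α := fun _ => D) (fun j => ev (P j)) U
    have hE1 : ∀ t : Fin d, E t.castSucc = ev (P t) := fun t => by simp [E]
    have hcE : ∀ (r : Fin R) (k : Fin s) (lam : Fin (d + 1) → D) (i j : Fin (d + 1)), i ≠ j →
        lam i = lam j → (∃ t : Fin d, lam i = E t.castSucc) → symEval lam (y r k) = 0 := by
      intro r k lam i j hij hl ht
      obtain ⟨t, ht⟩ := ht
      exact hco r k lam i j hij hl ⟨P t, by rw [ht, hE1]⟩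
    have hline := fun (r : Fin R) (k : Fin s) => line_poly (y r k) E (hcE r k)
    choose q hq1 hq2 hq3 using hline
    have hQ : ∑ k : Fin R → Fin s, Polynomial.C (a k) * ∏ r, q r (k r) = 0 := by
      apply Polynomial.funext
      intro τ
      rw [Polynomial.eval_finsetSum, Polynomial.eval_zero]
      have h1 : ∑ k : Fin R → Fin s, a k • X k = 0 := by
        have h2 := hf a
        rw [ha] at h2
        exact h2.symm
      have h2 := congrArg (symEval (fun _ : Fin ((d + 1) * R) =>
        (τ • (∑ t : Fin d, E t.castSucc) + E (Fin.last d) : D))) h1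
      rw [map_zero, map_sum] at h2
      simp only [map_smul, hX, smul_eq_mul] at h2
      have h3 : κ * ∑ k : Fin R → Fin s, a k * ∏ r, symEval (fun _ : Fin (d + 1) =>
          (τ • (∑ t : Fin d, E t.castSucc) + E (Fin.last d) : D)) (y r (k r)) = 0 := by
        rw [← h2, Finset.mul_sum]
        apply Finset.sum_congr rfl
        intro k _
        ring
      rw [← (mul_eq_zero.1 h3).resolve_left hκ]
      apply Finset.sum_congr rfl
      intro k _
      rw [Polynomial.eval_mul, Polynomial.eval_C, Polynomial.eval_prod]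
      congr 1
      apply Finset.prod_congr rfl
      intro r _
      exact hq1 r (k r) τ
    have hc := congrArg (fun p : Polynomial ℂ => p.coeff (R * d)) hQ
    simp only [Polynomial.finsetSum_coeff, Polynomial.coeff_C_mul, Polynomial.coeff_zero] at hc
    have h4 : ∀ k : Fin R → Fin s, (∏ r, q r (k r)).coeff (R * d) =
        ∏ r, ((Fintype.card (Equiv.Perm (Fin (d + 1))) : ℂ) *
          (if k r = k0 r then (1 : ℂ) else 0)) := by
      intro k
      have h5 := Polynomial.coeff_prod_of_natDegree_le Finset.univ (fun r => q r (k r)) d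
        (fun r _ => hq2 r (k r))
      rw [Finset.card_univ, Fintype.card_fin] at h5
      rw [h5]
      apply Finset.prod_congr rfl
      intro r _
      rw [hq3]
      congr 1
      have h6 := hLf (r, k r) U
      rw [hU] at h6
      exact h6.symm
    simp only [h4] at hc
    rw [Finset.sum_eq_single k0] at hc
    · simp only [if_true, mul_one, Finset.prod_const] at hc
      exact (mul_eq_zero.1 hc).resolve_right (pow_ne_zero _ hfac)
    · intro k _ hk
      obtain ⟨r, hr⟩ : ∃ r, k r ≠ k0 r := by
        by_contra h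
        push Not at h
        exact hk (funext h)
      have h7 : ∏ r, ((Fintype.card (Equiv.Perm (Fin (d + 1))) : ℂ) *
          (if k r = k0 r then (1 : ℂ) else 0)) = 0 := by
        apply Finset.prod_eq_zero (Finset.mem_univ r)
        rw [if_neg hr, mul_zero]
      rw [h7, mul_zero]
    · intro h
      exact absurd (Finset.mem_univ _) h
  have hfin := finrank_le_of_inj f ⊤ (hwSpace (R • nu) (plethAct ((d + 1) * R) c m))
    (fun a _ => by
      rw [hf]
      exact Submodule.sum_mem _ (fun k _ => Submodule.smul_mem _ _ (hXw k)))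
    (fun a _ h => hinj a h)
  rw [finrank_top, Module.finrank_fintype_fun_eq_card, Fintype.card_fun, Fintype.card_fin,
    Fintype.card_fin] at hfin
  exact hfin

end Vale.Agent.P181.FR
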